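import Mathlib

/-!
# P207 (helper566): `C^m` convergence of families of functions near a point
-/

open Filter Topology
open scoped ContDiff

noncomputable section

namespace Vale.Agent.P207.H566

variable {T T' : Type} {E : Type} [NormedAddCommGroup E] [NormedSpace ℝ E]

/-- `C^m` convergence of `G t` to `G0` near `u` along the filter `l` -/
def Cv (l : Filter T) (u : E) : ℕ → ∀ {F : Type} [NormedAddCommGroup F] [NormedSpace ℝ F],
    (T → E → F) → (E → F) → Prop
  | 0, _, _, _, G, G0 => Tendsto (fun q : T × E => G q.1 q.2) (l ×ˢ 𝓝 u) (𝓝 (G0 u))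
  | m + 1, F, _, _, G, G0 =>
      Tendsto (fun q : T × E => G q.1 q.2) (l ×ˢ 𝓝 u) (𝓝 (G0 u)) ∧
      (∀ᶠ q : T × E in l ×ˢ 𝓝 u, DifferentiableAt ℝ (G q.1) q.2) ∧
      (∀ᶠ x in 𝓝 u, DifferentiableAt ℝ G0 x) ∧
      Cv l u m (F := E →L[ℝ] F) (fun t => fderiv ℝ (G t)) (fderiv ℝ G0)

theorem ev_nhds {l : Filter T} {u : E} {P : T × E → Prop} (h : ∀ᶠ q in l ×ˢ 𝓝 u, P q) :
    ∀ᶠ q in l ×ˢ 𝓝 u, ∀ᶠ x in 𝓝 q.2, P (q.1, x) := by
  rw [eventually_prod_iff] at h
  obtain ⟨pa, ha, pb, hb, hab⟩ := h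
  have hb' := eventually_eventually_nhds.2 hb
  rw [eventually_prod_iff]
  exact ⟨pa, ha, fun y => ∀ᶠ x in 𝓝 y, pb x, hb', fun hx y hy => hy.mono fun z hz => hab hx hz⟩

variable {l : Filter T} {u : E} {m : ℕ}

section

variable {F F' F'' : Type} [NormedAddCommGroup F] [NormedSpace ℝ F] [NormedAddCommGroup F']
  [NormedSpace ℝ F'] [NormedAddCommGroup F''] [NormedSpace ℝ F'']

theorem Cv.tendsto {G : T → E → F} {G0 : E → F} (h : Cv l u m G G0) :
    Tendsto (fun q : T × E => G q.1 q.2) (l ×ˢ 𝓝 u) (𝓝 (G0 u)) := by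
  cases m with
  | zero => exact h
  | succ m => exact h.1

theorem Cv.fderiv {G : T → E → F} {G0 : E → F} (h : Cv l u (m + 1) G G0) :
    Cv l u m (fun t => _root_.fderiv ℝ (G t)) (_root_.fderiv ℝ G0) := h.2.2.2

theorem Cv.of_succ : ∀ {m : ℕ} {F : Type} [NormedAddCommGroup F] [NormedSpace ℝ F]
    {G : T → E → F} {G0 : E → F}, Cv l u (m + 1) G G0 → Cv l u m G G0
  | 0, _, _, _, _, _, h => h.1
  | _ + 1, _, _, _, _, _, h => ⟨h.1, h.2.1, h.2.2.1, Cv.of_succ h.2.2.2⟩

theorem Cv.congr : ∀ {m : ℕ} {F : Type} [NormedAddCommGroup F] [NormedSpace ℝ F]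
    {G G' : T → E → F} {G0 G0' : E → F}, Cv l u m G G0 →
    (∀ᶠ q : T × E in l ×ˢ 𝓝 u, G' q.1 q.2 = G q.1 q.2) → G0' =ᶠ[𝓝 u] G0 → Cv l u m G' G0' := by
  intro m
  induction m with
  | zero =>
    intro F _ _ G G' G0 G0' h h1 h2
    change Tendsto _ _ (𝓝 (G0' u))
    rw [h2.self_of_nhds]
    exact Tendsto.congr' (h1.mono fun q hq => hq.symm) (show Tendsto _ _ _ from h)
  | succ m ih =>
    intro F _ _ G G' G0 G0' h h1 h2
    have h1' := ev_nhds h1
    refine ⟨?_, ?_, ?_, ?_⟩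
    · rw [h2.self_of_nhds]
      exact Tendsto.congr' (h1.mono fun q hq => hq.symm) h.1
    · filter_upwards [h.2.1, h1'] with q hq hq'
      exact hq.congr_of_eventuallyEq hq'
    · filter_upwards [h.2.2.1, h2.eventuallyEq_nhds] with x hx hx'
      exact hx.congr_of_eventuallyEq hx'
    · refine ih h.2.2.2 ?_ h2.fderiv
      filter_upwards [h1'] with q hq
      exact EventuallyEq.fderiv_eq hq

theorem Cv.comap : ∀ {m : ℕ} {F : Type} [NormedAddCommGroup F] [NormedSpace ℝ F]
    {G : T → E → F} {G0 : E → F} {l' : Filter T'} {π : T' → T}, Cv l u m G G0 →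
    Tendsto π l' l → Cv l' u m (fun t => G (π t)) G0 := by
  intro m
  induction m with
  | zero =>
    intro F _ _ G G0 l' π h hπ
    exact (show Tendsto _ _ _ from h).comp (hπ.prodMap tendsto_id)
  | succ m ih =>
    intro F _ _ G G0 l' π h hπ
    exact ⟨h.1.comp (hπ.prodMap tendsto_id), (hπ.prodMap tendsto_id).eventually h.2.1, h.2.2.1,
      ih h.2.2.2 hπ⟩

theorem Cv.const : ∀ {m : ℕ} {F : Type} [NormedAddCommGroup F] [NormedSpace ℝ F]
    {c : T → F} {c0 : F}, Tendsto c l (𝓝 c0) → Cv l u m (fun t _ => c t) (fun _ => c0) := by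
  intro m
  induction m with
  | zero =>
    intro F _ _ c c0 h
    exact h.comp tendsto_fst
  | succ m ih =>
    intro F _ _ c c0 h
    refine ⟨h.comp tendsto_fst, Eventually.of_forall fun q => differentiableAt_const _,
      Eventually.of_forall fun x => differentiableAt_const _, ?_⟩
    have h1 : Cv l u m (fun (_ : T) (_ : E) => (0 : E →L[ℝ] F)) (fun _ => (0 : E →L[ℝ] F)) :=
      ih tendsto_const_nhds
    refine h1.congr (Eventually.of_forall fun q => ?_) (Eventually.of_forall fun x => ?_)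
    · simp
    · simp

theorem Cv.add : ∀ {m : ℕ} {F : Type} [NormedAddCommGroup F] [NormedSpace ℝ F]
    {f g : T → E → F} {f0 g0 : E → F}, Cv l u m f f0 → Cv l u m g g0 →
    Cv l u m (fun t x => f t x + g t x) (fun x => f0 x + g0 x) := by
  intro m
  induction m with
  | zero =>
    intro F _ _ f g f0 g0 hf hg
    exact Tendsto.add (show Tendsto _ _ _ from hf) (show Tendsto _ _ _ from hg)
  | succ m ih =>
    intro F _ _ f g f0 g0 hf hg
    refine ⟨hf.1.add hg.1, ?_, ?_, ?_⟩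
    · filter_upwards [hf.2.1, hg.2.1] with q h1 h2 using h1.add h2
    · filter_upwards [hf.2.2.1, hg.2.2.1] with x h1 h2 using h1.add h2
    · refine (ih hf.2.2.2 hg.2.2.2).congr ?_ ?_
      · filter_upwards [hf.2.1, hg.2.1] with q h1 h2 using fderiv_fun_add h1 h2
      · filter_upwards [hf.2.2.1, hg.2.2.1] with x h1 h2 using fderiv_fun_add h1 h2

theorem Cv.clm : ∀ {m : ℕ} {F F' : Type} [NormedAddCommGroup F] [NormedSpace ℝ F]
    [NormedAddCommGroup F'] [NormedSpace ℝ F'] {f : T → E → F} {f0 : E → F} (L : F →L[ℝ] F'),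
    Cv l u m f f0 → Cv l u m (fun t x => L (f t x)) (fun x => L (f0 x)) := by
  intro m
  induction m with
  | zero =>
    intro F F' _ _ _ _ f f0 L hf
    exact (L.continuous.tendsto _).comp (show Tendsto _ _ _ from hf)
  | succ m ih =>
    intro F F' _ _ _ _ f f0 L hf
    refine ⟨(L.continuous.tendsto _).comp hf.1, ?_, ?_, ?_⟩
    · filter_upwards [hf.2.1] with q h1 using L.differentiableAt.comp _ h1
    · filter_upwards [hf.2.2.1] with x h1 using L.differentiableAt.comp _ h1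
    · refine (ih (ContinuousLinearMap.compL ℝ E F F' L) hf.2.2.2).congr ?_ ?_
      · filter_upwards [hf.2.1] with q h1
        exact (L.hasFDerivAt.comp _ h1.hasFDerivAt).fderiv
      · filter_upwards [hf.2.2.1] with x h1
        exact (L.hasFDerivAt.comp _ h1.hasFDerivAt).fderiv

theorem Cv.neg {f : T → E → F} {f0 : E → F} (hf : Cv l u m f f0) :
    Cv l u m (fun t x => - f t x) (fun x => - f0 x) :=
  hf.clm (-ContinuousLinearMap.id ℝ F)

theorem Cv.smul {f : T → E → F} {f0 : E → F} (c : ℝ) (hf : Cv l u m f f0) :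
    Cv l u m (fun t x => c • f t x) (fun x => c • f0 x) :=
  hf.clm (c • ContinuousLinearMap.id ℝ F)

theorem Cv.sub {f g : T → E → F} {f0 g0 : E → F} (hf : Cv l u m f f0) (hg : Cv l u m g g0) :
    Cv l u m (fun t x => f t x - g t x) (fun x => f0 x - g0 x) := by
  simp only [sub_eq_add_neg]
  exact hf.add hg.neg

theorem Cv.bilin : ∀ {m : ℕ} {F F' F'' : Type} [NormedAddCommGroup F] [NormedSpace ℝ F]
    [NormedAddCommGroup F'] [NormedSpace ℝ F'] [NormedAddCommGroup F''] [NormedSpace ℝ F'']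
    {f : T → E → F} {f0 : E → F} {g : T → E → F'} {g0 : E → F'} (B : F →L[ℝ] F' →L[ℝ] F''),
    Cv l u m f f0 → Cv l u m g g0 →
    Cv l u m (fun t x => B (f t x) (g t x)) (fun x => B (f0 x) (g0 x)) := by
  intro m
  induction m with
  | zero =>
    intro F F' F'' _ _ _ _ _ _ f f0 g g0 B hf hg
    exact (B.isBoundedBilinearMap.continuous.tendsto (f0 u, g0 u)).comp
      (Tendsto.prodMk_nhds (show Tendsto _ _ _ from hf) (show Tendsto _ _ _ from hg))
  | succ m ih =>
    intro F F' F'' _ _ _ _ _ _ f f0 g g0 B hf hg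
    refine ⟨(B.isBoundedBilinearMap.continuous.tendsto (f0 u, g0 u)).comp
      (Tendsto.prodMk_nhds hf.1 hg.1), ?_, ?_, ?_⟩
    · filter_upwards [hf.2.1, hg.2.1] with q h1 h2
      exact (B.hasFDerivAt_of_bilinear h1.hasFDerivAt h2.hasFDerivAt).differentiableAt
    · filter_upwards [hf.2.2.1, hg.2.2.1] with x h1 h2
      exact (B.hasFDerivAt_of_bilinear h1.hasFDerivAt h2.hasFDerivAt).differentiableAt
    · refine ((ih (B.precompR E) hf.of_succ hg.2.2.2).add
        (ih (B.precompL E) hf.2.2.2 hg.of_succ)).congr ?_ ?_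
      · filter_upwards [hf.2.1, hg.2.1] with q h1 h2
        exact (B.hasFDerivAt_of_bilinear h1.hasFDerivAt h2.hasFDerivAt).fderiv
      · filter_upwards [hf.2.2.1, hg.2.2.1] with x h1 h2
        exact (B.hasFDerivAt_of_bilinear h1.hasFDerivAt h2.hasFDerivAt).fderiv

theorem Cv.clm_apply {f : T → E → F →L[ℝ] F'} {f0 : E → F →L[ℝ] F'} {g : T → E → F}
    {g0 : E → F} (hf : Cv l u m f f0) (hg : Cv l u m g g0) :
    Cv l u m (fun t x => f t x (g t x)) (fun x => f0 x (g0 x)) :=
  hf.bilin (ContinuousLinearMap.id ℝ (F →L[ℝ] F')) hg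

theorem Cv.clm_comp {f : T → E → F' →L[ℝ] F''} {f0 : E → F' →L[ℝ] F''}
    {g : T → E → F →L[ℝ] F'} {g0 : E → F →L[ℝ] F'} (hf : Cv l u m f f0) (hg : Cv l u m g g0) :
    Cv l u m (fun t x => (f t x).comp (g t x)) (fun x => (f0 x).comp (g0 x)) :=
  hf.bilin (ContinuousLinearMap.compL ℝ F F' F'') hg

/-- composition with a smooth map -/
theorem Cv.comp : ∀ {m : ℕ} {F F' : Type} [NormedAddCommGroup F] [NormedSpace ℝ F]
    [NormedAddCommGroup F'] [NormedSpace ℝ F'] {f : T → E → F} {f0 : E → F} {Φ : F → F'},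
    Cv l u m f f0 → (∀ᶠ y in 𝓝 (f0 u), ContDiffAt ℝ ∞ Φ y) → ContinuousAt f0 u →
    Cv l u m (fun t x => Φ (f t x)) (fun x => Φ (f0 x)) := by
  intro m
  induction m with
  | zero =>
    intro F F' _ _ _ _ f f0 Φ hf hΦ _
    exact Tendsto.comp (hΦ.self_of_nhds.continuousAt) (show Tendsto _ _ _ from hf)
  | succ m ih =>
    intro F F' _ _ _ _ f f0 Φ hf hΦ hc
    have h1 : ∀ᶠ q : T × E in l ×ˢ 𝓝 u, ContDiffAt ℝ ∞ Φ (f q.1 q.2) := hf.1.eventually hΦ
    have h2 : ∀ᶠ x in 𝓝 u, ContDiffAt ℝ ∞ Φ (f0 x) := hc.eventually hΦ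
    refine ⟨Tendsto.comp (hΦ.self_of_nhds.continuousAt) hf.1, ?_, ?_, ?_⟩
    · filter_upwards [h1, hf.2.1] with q h3 h4
      exact (h3.differentiableAt (by simp)).comp _ h4
    · filter_upwards [h2, hf.2.2.1] with x h3 h4
      exact (h3.differentiableAt (by simp)).comp _ h4
    · have hΦ' : ∀ᶠ y in 𝓝 (f0 u), ContDiffAt ℝ ∞ (_root_.fderiv ℝ Φ) y := by
        filter_upwards [hΦ] with y hy using hy.fderiv_right (m := ∞) (by simp)
      refine ((ih hf.of_succ hΦ' hc).clm_comp hf.2.2.2).congr ?_ ?_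
      · filter_upwards [h1, hf.2.1] with q h3 h4
        exact ((h3.differentiableAt (by simp)).hasFDerivAt.comp _ h4.hasFDerivAt).fderiv
      · filter_upwards [h2, hf.2.2.1] with x h3 h4
        exact ((h3.differentiableAt (by simp)).hasFDerivAt.comp _ h4.hasFDerivAt).fderiv

/-- a smooth function which does not depend on the parameter -/
theorem Cv.fixed : ∀ {m : ℕ} {F : Type} [NormedAddCommGroup F] [NormedSpace ℝ F]
    {f0 : E → F}, (∀ᶠ y in 𝓝 u, ContDiffAt ℝ ∞ f0 y) → Cv l u m (fun _ => f0) f0 := by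
  intro m
  induction m with
  | zero =>
    intro F _ _ f0 h
    exact (h.self_of_nhds.continuousAt.tendsto).comp tendsto_snd
  | succ m ih =>
    intro F _ _ f0 h
    refine ⟨(h.self_of_nhds.continuousAt.tendsto).comp tendsto_snd, ?_, ?_, ?_⟩
    · exact tendsto_snd.eventually (h.mono fun y hy => hy.differentiableAt (by simp))
    · exact h.mono fun y hy => hy.differentiableAt (by simp)
    · exact ih (h.mono fun y hy => hy.fderiv_right (m := ∞) (by simp))

/-- small perturbations: `D t` tends to zero with its derivatives of order `≤ m`, uniformly in a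
neighbourhood of `u` -/
theorem Cv.of_small : ∀ {m : ℕ} {F : Type} [NormedAddCommGroup F] [NormedSpace ℝ F]
    {D : T → E → F}, (∀ᶠ q : T × E in l ×ˢ 𝓝 u, ContDiffAt ℝ ∞ (D q.1) q.2) →
    (∀ i ≤ m, Tendsto (fun q : T × E => ‖iteratedFDeriv ℝ i (D q.1) q.2‖) (l ×ˢ 𝓝 u) (𝓝 0)) →
    Cv l u m D (fun _ => 0) := by
  intro m
  induction m with
  | zero =>
    intro F _ _ D _ h
    have h1 := h 0 le_rfl
    simp only [norm_iteratedFDeriv_zero] at h1
    exact tendsto_zero_iff_norm_tendsto_zero.2 h1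
  | succ m ih =>
    intro F _ _ D hD h
    have h1 := h 0 (Nat.zero_le _)
    simp only [norm_iteratedFDeriv_zero] at h1
    refine ⟨tendsto_zero_iff_norm_tendsto_zero.2 h1, ?_, Eventually.of_forall fun x =>
      differentiableAt_const _, ?_⟩
    · exact hD.mono fun q hq => hq.differentiableAt (by simp)
    · have h2 : Cv l u m (fun t => _root_.fderiv ℝ (D t)) (fun _ => (0 : E →L[ℝ] F)) := by
        refine ih (hD.mono fun q hq => hq.fderiv_right (m := ∞) (by simp)) fun i hi => ?_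
        have h3 := h (i + 1) (by omega)
        simpa only [norm_iteratedFDeriv_fderiv] using h3
      refine h2.congr (Eventually.of_forall fun q => rfl) (Eventually.of_forall fun x => ?_)
      simp

end

end Vale.Agent.P207.H566
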