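import Mathlib

/-!
# P207 (helper566): sums of norms of derivatives at a point
-/

open Filter Topology
open scoped ContDiff

noncomputable section

namespace Vale.Agent.P207.H566

variable {E V W X G : Type} [NormedAddCommGroup E] [NormedSpace ℝ E]
  [NormedAddCommGroup V] [NormedSpace ℝ V] [NormedAddCommGroup W] [NormedSpace ℝ W]
  [NormedAddCommGroup X] [NormedSpace ℝ X] [NormedAddCommGroup G] [NormedSpace ℝ G]

/-- the sum of the norms of the derivatives of order `≤ m` at `x` -/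
def jn (m : ℕ) (F : E → V) (x : E) : ℝ := ∑ i ∈ Finset.range (m + 1), ‖iteratedFDeriv ℝ i F x‖

theorem jn_nonneg (m : ℕ) (F : E → V) (x : E) : 0 ≤ jn m F x :=
  Finset.sum_nonneg fun _ _ => norm_nonneg _

theorem jn_mono {m m' : ℕ} (h : m ≤ m') (F : E → V) (x : E) : jn m F x ≤ jn m' F x :=
  Finset.sum_le_sum_of_subset_of_nonneg (Finset.range_subset_range.2 (by omega))
    fun _ _ _ => norm_nonneg _

theorem norm_iter_le_jn {i m : ℕ} (h : i ≤ m) (F : E → V) (x : E) :
    ‖iteratedFDeriv ℝ i F x‖ ≤ jn m F x :=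
  Finset.single_le_sum (f := fun i => ‖iteratedFDeriv ℝ i F x‖) (fun _ _ => norm_nonneg _)
    (Finset.mem_range.2 (by omega))

theorem norm_le_jn (m : ℕ) (F : E → V) (x : E) : ‖F x‖ ≤ jn m F x := by
  have h := norm_iter_le_jn (Nat.zero_le m) F x
  rwa [norm_iteratedFDeriv_zero] at h

theorem jn_zero (F : E → V) (x : E) : jn 0 F x = ‖F x‖ := by
  simp [jn]

theorem jn_congr {m : ℕ} {F F' : E → V} {x : E} (h : F =ᶠ[𝓝 x] F') : jn m F x = jn m F' x := by
  refine Finset.sum_congr rfl fun i _ => ?_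
  rw [(h.iteratedFDeriv ℝ i).self_of_nhds]

theorem jn_succ (m : ℕ) (F : E → V) (x : E) :
    jn (m + 1) F x = ‖F x‖ + jn m (fderiv ℝ F) x := by
  unfold jn
  rw [Finset.sum_range_succ', add_comm, norm_iteratedFDeriv_zero]
  congr 1
  refine Finset.sum_congr rfl fun i _ => ?_
  rw [norm_iteratedFDeriv_fderiv]

theorem jn_fderiv_le (m : ℕ) (F : E → V) (x : E) : jn m (fderiv ℝ F) x ≤ jn (m + 1) F x := by
  rw [jn_succ]
  exact le_add_of_nonneg_left (norm_nonneg _)

theorem jn_clm {m : ℕ} {F : E → V} {x : E} (L : V →L[ℝ] W) (hF : ContDiffAt ℝ m F x) :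
    jn m (fun y => L (F y)) x ≤ ‖L‖ * jn m F x := by
  unfold jn
  rw [Finset.mul_sum]
  refine Finset.sum_le_sum fun i hi => ?_
  exact L.norm_iteratedFDeriv_comp_left hF (by
    exact_mod_cast Nat.lt_succ_iff.1 (Finset.mem_range.1 hi))

theorem jn_add {m : ℕ} {F F' : E → V} {x : E} (hF : ContDiffAt ℝ m F x)
    (hF' : ContDiffAt ℝ m F' x) : jn m (fun y => F y + F' y) x ≤ jn m F x + jn m F' x := by
  unfold jn
  rw [← Finset.sum_add_distrib]
  refine Finset.sum_le_sum fun i hi => ?_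
  have hi' : (i : ℕ∞ω) ≤ m := by exact_mod_cast Nat.lt_succ_iff.1 (Finset.mem_range.1 hi)
  have h1 : iteratedFDeriv ℝ i (fun y => F y + F' y) x =
      iteratedFDeriv ℝ i F x + iteratedFDeriv ℝ i F' x :=
    iteratedFDeriv_add_apply (hF.of_le hi') (hF'.of_le hi')
  rw [h1]
  exact norm_add_le _ _

theorem jn_sum {m : ℕ} {κ : Type} (s : Finset κ) {F : κ → E → V} {x : E}
    (hF : ∀ k ∈ s, ContDiffAt ℝ m (F k) x) :
    jn m (fun y => ∑ k ∈ s, F k y) x ≤ ∑ k ∈ s, jn m (F k) x := by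
  classical
  induction s using Finset.induction_on with
  | empty =>
    simp only [Finset.sum_empty]
    have h0 : ∀ i, iteratedFDeriv ℝ i (fun _ : E => (0 : V)) x = 0 := fun i => by
      rw [iteratedFDeriv_fun_zero]
      rfl
    unfold jn
    simp [h0]
  | insert k s hk ih =>
    simp only [Finset.sum_insert hk]
    refine (jn_add (hF k (Finset.mem_insert_self _ _)) (ContDiffAt.sum fun j hj =>
      hF j (Finset.mem_insert_of_mem hj))).trans ?_
    exact add_le_add le_rfl (ih fun j hj => hF j (Finset.mem_insert_of_mem hj))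

theorem jn_bilin {m : ℕ} (B : V →L[ℝ] W →L[ℝ] X) {f : E → V} {g : E → W} {x : E}
    (hf : ContDiffAt ℝ m f x) (hg : ContDiffAt ℝ m g x) :
    jn m (fun y => B (f y) (g y)) x ≤ ‖B‖ * ((m + 1) * 2 ^ m) * (jn m f x * jn m g x) := by
  obtain ⟨u, hu, hfu⟩ := hf.contDiffOn (m := m) le_rfl (by simp)
  obtain ⟨v, hv, hgv⟩ := hg.contDiffOn (m := m) le_rfl (by simp)
  obtain ⟨w, hw, hwo, hxw⟩ := mem_nhds_iff.1 (Filter.inter_mem hu hv)
  have hf' : ContDiffOn ℝ m f w := hfu.mono fun y hy => (hw hy).1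
  have hg' : ContDiffOn ℝ m g w := hgv.mono fun y hy => (hw hy).2
  have hB : 0 ≤ ‖B‖ := B.opNorm_nonneg
  have hP : 0 ≤ jn m f x * jn m g x := mul_nonneg (jn_nonneg _ _ _) (jn_nonneg _ _ _)
  have key : ∀ i ∈ Finset.range (m + 1), ‖iteratedFDeriv ℝ i (fun y => B (f y) (g y)) x‖ ≤
      ‖B‖ * 2 ^ m * (jn m f x * jn m g x) := by
    intro i hi
    have him : i ≤ m := Nat.lt_succ_iff.1 (Finset.mem_range.1 hi)
    have h1 := B.norm_iteratedFDerivWithin_le_of_bilinear hf' hg' hwo.uniqueDiffOn hxw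
      (n := i) (by exact_mod_cast him)
    rw [iteratedFDerivWithin_of_isOpen i hwo hxw] at h1
    refine h1.trans ?_
    rw [mul_assoc]
    refine mul_le_mul_of_nonneg_left ?_ hB
    have h2 : ∀ j ∈ Finset.range (i + 1), (i.choose j : ℝ) * ‖iteratedFDerivWithin ℝ j f w x‖ *
        ‖iteratedFDerivWithin ℝ (i - j) g w x‖ ≤ (i.choose j : ℝ) * (jn m f x * jn m g x) := by
      intro j hj
      have hji : j ≤ i := Nat.lt_succ_iff.1 (Finset.mem_range.1 hj)
      rw [iteratedFDerivWithin_of_isOpen j hwo hxw, iteratedFDerivWithin_of_isOpen (i - j) hwo hxw,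
        mul_assoc]
      exact mul_le_mul_of_nonneg_left (mul_le_mul (norm_iter_le_jn (hji.trans him) _ _)
        (norm_iter_le_jn ((Nat.sub_le _ _).trans him) _ _) (norm_nonneg _) (jn_nonneg _ _ _))
        (Nat.cast_nonneg _)
    refine (Finset.sum_le_sum h2).trans ?_
    rw [← Finset.sum_mul]
    refine mul_le_mul_of_nonneg_right ?_ hP
    have h3 : ∑ j ∈ Finset.range (i + 1), (i.choose j : ℝ) = 2 ^ i := by
      exact_mod_cast Nat.sum_range_choose i
    rw [h3]
    exact pow_le_pow_right₀ (by norm_num) him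
  refine (Finset.sum_le_sum key).trans ?_
  rw [Finset.sum_const, Finset.card_range, nsmul_eq_mul]
  push_cast
  exact le_of_eq (by ring)

theorem jn_clm_apply {m : ℕ} {f : E → V →L[ℝ] W} {g : E → V} {x : E}
    (hf : ContDiffAt ℝ m f x) (hg : ContDiffAt ℝ m g x) :
    jn m (fun y => f y (g y)) x ≤ ((m + 1) * 2 ^ m) * (jn m f x * jn m g x) := by
  have h := jn_bilin (ContinuousLinearMap.id ℝ (V →L[ℝ] W)) hf hg
  have h1 : ‖ContinuousLinearMap.id ℝ (V →L[ℝ] W)‖ ≤ 1 := ContinuousLinearMap.norm_id_le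
  have h2 : 0 ≤ ((m + 1) * 2 ^ m : ℝ) * (jn m f x * jn m g x) :=
    mul_nonneg (by positivity) (mul_nonneg (jn_nonneg _ _ _) (jn_nonneg _ _ _))
  refine h.trans ?_
  rw [mul_assoc]
  exact mul_le_of_le_one_left h2 h1

theorem jn_smul {m : ℕ} {f : E → ℝ} {g : E → V} {x : E}
    (hf : ContDiffAt ℝ m f x) (hg : ContDiffAt ℝ m g x) :
    jn m (fun y => f y • g y) x ≤
      ‖ContinuousLinearMap.lsmul ℝ ℝ (E := V)‖ * ((m + 1) * 2 ^ m) * (jn m f x * jn m g x) :=
  jn_bilin (ContinuousLinearMap.lsmul ℝ ℝ) hf hg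

theorem jn_comp_of {m : ℕ} {A : G → E} {L : G →L[ℝ] E} (hL : ‖L‖ ≤ 1)
    (hA : ∀ x, HasFDerivAt A L x) {F : E → V} {x : G} (hF : ContDiffAt ℝ m F (A x)) :
    jn m (fun y => F (A y)) x ≤ jn m F (A x) := by
  induction m generalizing V with
  | zero => rw [jn_zero, jn_zero]
  | succ m ih =>
    rw [jn_succ, jn_succ]
    refine add_le_add le_rfl ?_
    have hc : ContinuousAt A x := (hA x).continuousAt
    have h1 : ∀ᶠ y in 𝓝 (A x), DifferentiableAt ℝ F y := by
      have h2 := hF.eventually (by simp)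
      exact h2.mono fun y hy => hy.differentiableAt (by simp)
    have h2 : (fderiv ℝ fun y => F (A y)) =ᶠ[𝓝 x]
        fun y => (ContinuousLinearMap.compL ℝ G E V).flip L (fderiv ℝ F (A y)) := by
      filter_upwards [hc.eventually h1] with y hy
      exact (hy.hasFDerivAt.comp y (hA y)).fderiv
    have h3 : ContDiffAt ℝ m (fderiv ℝ F) (A x) := hF.fderiv_right (by push_cast; exact le_rfl)
    have hAc : ContDiffAt ℝ m A x := by
      have h4 : ContDiff ℝ ∞ A := by
        have h5 : ∀ y, A y = A 0 + L y := by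
          intro y
          have h6 : ∀ z, HasFDerivAt (fun z => A z - L z) (0 : G →L[ℝ] E) z := fun z => by
            have := (hA z).sub L.hasFDerivAt
            rwa [sub_self] at this
          have h7 := is_const_of_fderiv_eq_zero (𝕜 := ℝ) (f := fun z => A z - L z)
            (fun z => (h6 z).differentiableAt) (fun z => (h6 z).fderiv) y 0
          simp only [map_zero, sub_zero] at h7
          rw [← h7]
          abel
        rw [funext h5]
        exact contDiff_const.add L.contDiff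
      exact h4.contDiffAt.of_le (by exact_mod_cast le_top)
    rw [jn_congr h2]
    refine (jn_clm _ (h3.comp x hAc)).trans ?_
    have h4 : ‖(ContinuousLinearMap.compL ℝ G E V).flip L‖ ≤ 1 := by
      refine ContinuousLinearMap.opNorm_le_bound _ zero_le_one fun B => ?_
      change ‖B.comp L‖ ≤ 1 * ‖B‖
      rw [one_mul]
      exact (B.opNorm_comp_le L).trans (mul_le_of_le_one_right (norm_nonneg _) hL)
    exact (mul_le_of_le_one_left (jn_nonneg _ _ _) h4).trans (ih h3)

theorem continuousAt_jn {m : ℕ} {F : E → V} {x : E} (hF : ContDiffAt ℝ ∞ F x) :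
    ContinuousAt (jn m F) x := by
  unfold jn
  refine tendsto_finsetSum _ fun i _ => ?_
  have h1 : ContDiffAt ℝ ((0 : ℕ) : ℕ∞ω) (iteratedFDeriv ℝ i F) x :=
    hF.iteratedFDeriv_right (m := ((0 : ℕ) : ℕ∞ω)) (by exact_mod_cast le_top)
  exact h1.continuousAt.norm

/-- on a compact set the derivatives of order `≤ m` are bounded -/
theorem exists_jn_le {m : ℕ} {F : E → V} {K : Set E} (hK : IsCompact K)
    (hF : ∀ x ∈ K, ContDiffAt ℝ ∞ F x) : ∃ C : ℝ, 1 ≤ C ∧ ∀ x ∈ K, jn m F x ≤ C := by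
  have h1 : ContinuousOn (jn m F) K := fun x hx => (continuousAt_jn (hF x hx)).continuousWithinAt
  obtain ⟨C, hC⟩ := (hK.image_of_continuousOn h1).bddAbove
  exact ⟨max C 1, le_max_right _ _, fun x hx => (hC ⟨x, hx, rfl⟩).trans (le_max_left _ _)⟩

/-- the derivative along a field -/
def LZ (Z : E → E) (F : E → V) (x : E) : V := fderiv ℝ F x (Z x)

theorem contDiffAt_LZ {Z : E → E} {F : E → V} {x : E} (hZ : ContDiffAt ℝ ∞ Z x)
    (hF : ContDiffAt ℝ ∞ F x) : ContDiffAt ℝ ∞ (LZ Z F) x :=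
  (hF.fderiv_right (m := ∞) (by simp)).clm_apply hZ

theorem jn_LZ {m : ℕ} {Z : E → E} {F : E → V} {x : E} (hZ : ContDiffAt ℝ ∞ Z x)
    (hF : ContDiffAt ℝ ∞ F x) :
    jn m (LZ Z F) x ≤ ((m + 1) * 2 ^ m) * jn m Z x * jn (m + 1) F x := by
  have hm : ((m : ℕ) : ℕ∞ω) ≤ ∞ := by exact_mod_cast le_top
  have h1 : ContDiffAt ℝ m (fderiv ℝ F) x := (hF.fderiv_right (m := ∞) (by simp)).of_le hm
  have h2 := jn_clm_apply h1 (hZ.of_le hm)
  have hc : (0 : ℝ) ≤ (m + 1) * 2 ^ m := by positivity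
  have h3 := mul_le_mul_of_nonneg_left (mul_le_mul_of_nonneg_right (jn_fderiv_le m F x)
    (jn_nonneg m Z x)) hc
  refine h2.trans (h3.trans (le_of_eq ?_))
  ring

end Vale.Agent.P207.H566
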